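import Vale.Agent.P062.Data

namespace Vale.Agent.P062

theorem ck11_0 : checkR tree 2703 2486 55 = true := by decide +kernel

theorem ck11_1 : checkR tree 2703 2541 55 = true := by decide +kernel

theorem ck11_2 : checkR tree 2703 2596 55 = true := by decide +kernel

theorem ck11_3 : checkR tree 2703 2651 52 = true := by decide +kernel

end Vale.Agent.P062
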