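import Vale.Agent.P062.Data

namespace Vale.Agent.P062

theorem ck4_0 : checkR tree 2703 904 57 = true := by decide +kernel

theorem ck4_1 : checkR tree 2703 961 57 = true := by decide +kernel

theorem ck4_2 : checkR tree 2703 1018 57 = true := by decide +kernel

theorem ck4_3 : checkR tree 2703 1075 55 = true := by decide +kernel

end Vale.Agent.P062
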