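import Vale.Agent.P062.Ck0
import Vale.Agent.P062.Ck1
import Vale.Agent.P062.Ck2
import Vale.Agent.P062.Ck3
import Vale.Agent.P062.Ck4
import Vale.Agent.P062.Ck5
import Vale.Agent.P062.Ck6
import Vale.Agent.P062.Ck7
import Vale.Agent.P062.Ck8
import Vale.Agent.P062.Ck9
import Vale.Agent.P062.Ck10
import Vale.Agent.P062.Ck11

namespace Vale.Agent.P062

theorem all_check : ∀ i < 2703, check tree 2703 i = true := by
  intro i hi
  by_cases h : i < 57
  · exact checkR_spec _ _ _ _ ck0_0 i (by omega) (by omega)
  by_cases h : i < 114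
  · exact checkR_spec _ _ _ _ ck0_1 i (by omega) (by omega)
  by_cases h : i < 171
  · exact checkR_spec _ _ _ _ ck0_2 i (by omega) (by omega)
  by_cases h : i < 226
  · exact checkR_spec _ _ _ _ ck0_3 i (by omega) (by omega)
  by_cases h : i < 283
  · exact checkR_spec _ _ _ _ ck1_0 i (by omega) (by omega)
  by_cases h : i < 340
  · exact checkR_spec _ _ _ _ ck1_1 i (by omega) (by omega)
  by_cases h : i < 397
  · exact checkR_spec _ _ _ _ ck1_2 i (by omega) (by omega)
  by_cases h : i < 452
  · exact checkR_spec _ _ _ _ ck1_3 i (by omega) (by omega)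
  by_cases h : i < 509
  · exact checkR_spec _ _ _ _ ck2_0 i (by omega) (by omega)
  by_cases h : i < 566
  · exact checkR_spec _ _ _ _ ck2_1 i (by omega) (by omega)
  by_cases h : i < 623
  · exact checkR_spec _ _ _ _ ck2_2 i (by omega) (by omega)
  by_cases h : i < 678
  · exact checkR_spec _ _ _ _ ck2_3 i (by omega) (by omega)
  by_cases h : i < 735
  · exact checkR_spec _ _ _ _ ck3_0 i (by omega) (by omega)
  by_cases h : i < 792
  · exact checkR_spec _ _ _ _ ck3_1 i (by omega) (by omega)
  by_cases h : i < 849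
  · exact checkR_spec _ _ _ _ ck3_2 i (by omega) (by omega)
  by_cases h : i < 904
  · exact checkR_spec _ _ _ _ ck3_3 i (by omega) (by omega)
  by_cases h : i < 961
  · exact checkR_spec _ _ _ _ ck4_0 i (by omega) (by omega)
  by_cases h : i < 1018
  · exact checkR_spec _ _ _ _ ck4_1 i (by omega) (by omega)
  by_cases h : i < 1075
  · exact checkR_spec _ _ _ _ ck4_2 i (by omega) (by omega)
  by_cases h : i < 1130
  · exact checkR_spec _ _ _ _ ck4_3 i (by omega) (by omega)
  by_cases h : i < 1187
  · exact checkR_spec _ _ _ _ ck5_0 i (by omega) (by omega)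
  by_cases h : i < 1244
  · exact checkR_spec _ _ _ _ ck5_1 i (by omega) (by omega)
  by_cases h : i < 1301
  · exact checkR_spec _ _ _ _ ck5_2 i (by omega) (by omega)
  by_cases h : i < 1356
  · exact checkR_spec _ _ _ _ ck5_3 i (by omega) (by omega)
  by_cases h : i < 1413
  · exact checkR_spec _ _ _ _ ck6_0 i (by omega) (by omega)
  by_cases h : i < 1470
  · exact checkR_spec _ _ _ _ ck6_1 i (by omega) (by omega)
  by_cases h : i < 1527
  · exact checkR_spec _ _ _ _ ck6_2 i (by omega) (by omega)
  by_cases h : i < 1582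
  · exact checkR_spec _ _ _ _ ck6_3 i (by omega) (by omega)
  by_cases h : i < 1639
  · exact checkR_spec _ _ _ _ ck7_0 i (by omega) (by omega)
  by_cases h : i < 1696
  · exact checkR_spec _ _ _ _ ck7_1 i (by omega) (by omega)
  by_cases h : i < 1753
  · exact checkR_spec _ _ _ _ ck7_2 i (by omega) (by omega)
  by_cases h : i < 1808
  · exact checkR_spec _ _ _ _ ck7_3 i (by omega) (by omega)
  by_cases h : i < 1865
  · exact checkR_spec _ _ _ _ ck8_0 i (by omega) (by omega)
  by_cases h : i < 1922
  · exact checkR_spec _ _ _ _ ck8_1 i (by omega) (by omega)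
  by_cases h : i < 1979
  · exact checkR_spec _ _ _ _ ck8_2 i (by omega) (by omega)
  by_cases h : i < 2034
  · exact checkR_spec _ _ _ _ ck8_3 i (by omega) (by omega)
  by_cases h : i < 2091
  · exact checkR_spec _ _ _ _ ck9_0 i (by omega) (by omega)
  by_cases h : i < 2148
  · exact checkR_spec _ _ _ _ ck9_1 i (by omega) (by omega)
  by_cases h : i < 2205
  · exact checkR_spec _ _ _ _ ck9_2 i (by omega) (by omega)
  by_cases h : i < 2260
  · exact checkR_spec _ _ _ _ ck9_3 i (by omega) (by omega)
  by_cases h : i < 2317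
  · exact checkR_spec _ _ _ _ ck10_0 i (by omega) (by omega)
  by_cases h : i < 2374
  · exact checkR_spec _ _ _ _ ck10_1 i (by omega) (by omega)
  by_cases h : i < 2431
  · exact checkR_spec _ _ _ _ ck10_2 i (by omega) (by omega)
  by_cases h : i < 2486
  · exact checkR_spec _ _ _ _ ck10_3 i (by omega) (by omega)
  by_cases h : i < 2541
  · exact checkR_spec _ _ _ _ ck11_0 i (by omega) (by omega)
  by_cases h : i < 2596
  · exact checkR_spec _ _ _ _ ck11_1 i (by omega) (by omega)
  by_cases h : i < 2651
  · exact checkR_spec _ _ _ _ ck11_2 i (by omega) (by omega)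
  exact checkR_spec _ _ _ _ ck11_3 i (by omega) (by omega)

theorem root_d : (tree.get 2702).d = 43 ∧ (tree.get 2702).nC = 0 := by decide +kernel

theorem win : W 43 ∅ ∅ := by
  have h := valid_all tree 2703 all_check _ 2702 (by norm_num) rfl id
    ⟨0, _, ⟨1, 1, Or.inl rfl, Or.inl rfl, Or.inl rfl⟩, by funext c; simp⟩ ∅ ∅ (by simp)
    (by rw [root_d.2]; simp [cells]) (by simp)
  rwa [root_d.1] at h

end Vale.Agent.P062
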