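import Mathlib

namespace Vale.Agent.P062

/-- signed permutation maps -/
def SP (R : ℤ × ℤ → ℤ × ℤ) : Prop :=
  ∃ a b : ℤ, (a = 1 ∨ a = -1) ∧ (b = 1 ∨ b = -1) ∧
    ((R = fun c => (a * c.1, b * c.2)) ∨ (R = fun c => (a * c.2, b * c.1)))

def sn : Finset (ℤ × ℤ) := {(0, 0), (1, 0), (2, 0), (3, 0), (3, 1), (4, 1)}

def Owns (M : Set (ℤ × ℤ)) : Prop := ∃ t R, SP R ∧ ∀ c ∈ sn, t + R c ∈ M

def Good (g : ℤ × ℤ → ℤ × ℤ) : Prop := ∃ t R, SP R ∧ g = fun c => t + R c

lemma Good.inj {g} (h : Good g) : Function.Injective g := by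
  obtain ⟨t, R, ⟨a, b, ha, hb, h | h⟩, rfl⟩ := h <;> subst h <;> rintro ⟨x, y⟩ ⟨x', y'⟩ e <;>
    simp only [add_right_inj, Prod.mk.injEq] at e ⊢ <;>
    rcases ha with rfl | rfl <;> rcases hb with rfl | rfl <;> omega

lemma Good.comp {g g'} (h : Good g) (h' : Good g') : Good (g ∘ g') := by
  obtain ⟨t, R, ⟨a, b, ha, hb, h⟩, rfl⟩ := h
  obtain ⟨t', R', ⟨a', b', ha', hb', h'⟩, rfl⟩ := h'
  have m : ∀ {u v : ℤ}, (u = 1 ∨ u = -1) → (v = 1 ∨ v = -1) → (u * v = 1 ∨ u * v = -1) := by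
    rintro u v (rfl | rfl) (rfl | rfl) <;> simp
  rcases h with rfl | rfl <;> rcases h' with rfl | rfl
  · exact ⟨t + (a * t'.1, b * t'.2), _, ⟨a * a', b * b', m ha ha', m hb hb', Or.inl rfl⟩,
      by funext c; ext <;> simp <;> ring⟩
  · exact ⟨t + (a * t'.1, b * t'.2), _, ⟨a * a', b * b', m ha ha', m hb hb', Or.inr rfl⟩,
      by funext c; ext <;> simp <;> ring⟩
  · exact ⟨t + (a * t'.2, b * t'.1), _, ⟨a * b', b * a', m ha hb', m hb ha', Or.inr rfl⟩,
      by funext c; ext <;> simp <;> ring⟩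
  · exact ⟨t + (a * t'.2, b * t'.1), _, ⟨a * b', b * a', m ha hb', m hb ha', Or.inl rfl⟩,
      by funext c; ext <;> simp <;> ring⟩

/-- Maker, to move, can force a win within `n` moves -/
def W : ℕ → Finset (ℤ × ℤ) → Finset (ℤ × ℤ) → Prop
  | 0, M, _ => Owns M
  | n + 1, M, B => Owns M ∨ ∃ p, p ∉ M ∧ p ∉ B ∧
      ∀ b, b ∉ insert p M → b ∉ B → W n (insert p M) (insert b B)

lemma W_succ : ∀ n M B, W n M B → W (n + 1) M B
  | 0, _, _, h => Or.inl h
  | n + 1, _, _, h => h.imp_right fun ⟨p, h1, h2, h3⟩ =>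
      ⟨p, h1, h2, fun b hb hb' => W_succ n _ _ (h3 b hb hb')⟩

lemma W_mono {n m M B} (h : n ≤ m) (hw : W n M B) : W m M B := by
  induction h with
  | refl => exact hw
  | step _ ih => exact W_succ _ _ _ ih

structure Card where
  d : ℕ
  p : ℕ
  nC : ℕ
  C : ℕ
  nN : ℕ
  N : ℕ
  nch : ℕ
  ch : ℕ

inductive T where
  | nil : T
  | node : T → Card → T → T

def T.get : T → ℕ → Card
  | .nil, _ => ⟨0, 0, 0, 0, 0, 0, 0, 0⟩
  | .node l c r, i => cond (Nat.beq i 0) c
      (cond (Nat.beq (i % 2) 1) (l.get (i / 2)) (r.get (i / 2 - 1)))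

def cells : ℕ → ℕ → List ℕ
  | 0, _ => []
  | n + 1, D => (D % 4096) :: cells n (D / 4096)

def mask : ℕ → ℕ → ℕ
  | 0, _ => 0
  | n + 1, D => (1 <<< (D % 4096)) ||| mask n (D / 4096)

def code2 (nx ny : Bool) (a b x y : ℕ) : ℕ :=
  cond (cond nx (Nat.ble x a) (Nat.ble (a + x) 63) && cond ny (Nat.ble y b) true && Nat.ble a 63)
    (cond nx (a - x) (a + x) + 64 * cond ny (b - y) (b + y)) 5000

def code (sw nx ny : Bool) (a b c : ℕ) : ℕ :=
  cond sw (code2 nx ny a b (c / 64) (c % 64)) (code2 nx ny a b (c % 64) (c / 64))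

def go (sw nx ny : Bool) (a b : ℕ) : ℕ → ℕ → ℕ
  | 0, _ => 0
  | n + 1, D => (1 <<< (code sw nx ny a b (D % 4096))) ||| go sw nx ny a b n (D / 4096)

def gm (e n D : ℕ) : ℕ :=
  go (Nat.beq (e / 16384 % 2) 1) (Nat.beq (e / 4096 % 2) 1) (Nat.beq (e / 8192 % 2) 1)
    (e / 32768 % 64) (e / 2097152) n D

def loop (t : T) (n0 d MC MU : ℕ) : ℕ → ℕ → ℕ → Bool
  | 0, _, acc => Nat.beq (acc ||| MC) MC
  | n + 1, D, acc =>
    Nat.ble (D % 4096 + 1) n0 && Nat.ble ((t.get (D % 4096)).d + 1) d &&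
    Nat.beq (gm (D % 134217728) (t.get (D % 4096)).nC (t.get (D % 4096)).C ||| MC) MC &&
    Nat.beq (gm (D % 134217728) (t.get (D % 4096)).nN (t.get (D % 4096)).N ||| MU) MU &&
    loop t n0 d MC MU n (D / 134217728)
      (acc &&& gm (D % 134217728) (t.get (D % 4096)).nN (t.get (D % 4096)).N)

def checkC (t : T) (n0 : ℕ) (c : Card) (MC MN : ℕ) : Bool :=
  Nat.testBit MN c.p && Nat.ble 1 c.d &&
  cond (Nat.beq c.nch 0) (Nat.beq (442721857769029238799 ||| MC) MC)
    (loop t n0 c.d MC (MN ||| MC) c.nch c.ch (MN ||| MC))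

def check (t : T) (n0 i : ℕ) : Bool :=
  checkC t n0 (t.get i) ((1 <<< (t.get i).p) ||| mask (t.get i).nC (t.get i).C)
    (mask (t.get i).nN (t.get i).N)

def checkR (t : T) (n0 lo : ℕ) : ℕ → Bool
  | 0 => true
  | k + 1 => check t n0 (lo + k) && checkR t n0 lo k

lemma checkR_spec (t : T) (n0 lo : ℕ) : ∀ k, checkR t n0 lo k = true →
    ∀ i, lo ≤ i → i < lo + k → check t n0 i = true
  | 0, _, i, h1, h2 => by omega
  | k + 1, h, i, h1, h2 => by
    simp only [checkR, Bool.and_eq_true] at h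
    by_cases e : i = lo + k
    · rw [e]; exact h.1
    · exact checkR_spec t n0 lo k h.2 i h1 (by omega)

def pos (k : ℕ) : ℤ × ℤ := (((k % 64 : ℕ) : ℤ), ((k / 64 : ℕ) : ℤ))

lemma pos_inj {k l : ℕ} (h : pos k = pos l) : k = l := by
  simp only [pos, Prod.mk.injEq] at h; omega

lemma tb1 (a k : ℕ) : (1 <<< a).testBit k = true ↔ a = k := by
  rw [Nat.one_shiftLeft, Nat.testBit_two_pow]; simp

lemma mask_spec : ∀ n D k, (mask n D).testBit k = true ↔ k ∈ cells n D
  | 0, _, _ => by simp [mask, cells]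
  | n + 1, D, k => by
    simp only [mask, cells, Nat.testBit_or, Bool.or_eq_true, tb1, mask_spec n, List.mem_cons]
    rw [eq_comm]

lemma cells_lt : ∀ n D k, k ∈ cells n D → k < 4096
  | 0, _, _, h => by simp [cells] at h
  | n + 1, D, k, h => by
    simp only [cells, List.mem_cons] at h
    rcases h with rfl | h
    · omega
    · exact cells_lt n _ k h

lemma go_spec (sw nx ny a b) : ∀ n D c, c ∈ cells n D →
    (go sw nx ny a b n D).testBit (code sw nx ny a b c) = true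
  | 0, _, _, h => by simp [cells] at h
  | n + 1, D, c, h => by
    simp only [cells, List.mem_cons] at h
    simp only [go, Nat.testBit_or, Bool.or_eq_true, tb1]
    rcases h with rfl | h
    · exact Or.inl rfl
    · exact Or.inr (go_spec sw nx ny a b n _ c h)

lemma code_good (sw nx ny : Bool) (a b : ℕ) : ∃ g, Good g ∧ ∀ c, code sw nx ny a b c < 4096 →
    g (pos c) = pos (code sw nx ny a b c) := by
  have key : ∀ x y : ℕ, code2 nx ny a b x y < 4096 → pos (code2 nx ny a b x y) =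
      ((a : ℤ) + (if nx then -1 else 1) * x, (b : ℤ) + (if ny then -1 else 1) * y) := by
    intro x y h
    unfold code2 at h ⊢
    cases hc : (cond nx (Nat.ble x a) (Nat.ble (a + x) 63) && cond ny (Nat.ble y b) true &&
      Nat.ble a 63)
    · rw [hc] at h; simp at h
    · cases nx <;> cases ny <;>
        simp only [cond_true, cond_false, Bool.and_eq_true, Nat.ble_eq, and_true] at hc <;>
        simp only [cond_true, cond_false, pos, Prod.mk.injEq, Bool.false_eq_true, if_false,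
          if_true] <;> omega
  have hs : ∀ z : Bool, ((if z then -1 else 1 : ℤ) = 1 ∨ (if z then -1 else 1 : ℤ) = -1) := by
    intro z; cases z <;> simp
  cases sw
  · refine ⟨_, ⟨((a : ℤ), (b : ℤ)), _, ⟨_, _, hs nx, hs ny, Or.inl rfl⟩, rfl⟩, fun c hc => ?_⟩
    simp only [code, cond_false] at hc ⊢
    rw [key _ _ hc]; simp [pos]
  · refine ⟨_, ⟨((a : ℤ), (b : ℤ)), _, ⟨_, _, hs nx, hs ny, Or.inr rfl⟩, rfl⟩, fun c hc => ?_⟩
    simp only [code, cond_true] at hc ⊢
    rw [key _ _ hc]; simp [pos]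

lemma gm_good (e : ℕ) : ∃ g, Good g ∧ ∀ n D c, c ∈ cells n D → ∃ k,
    (gm e n D).testBit k = true ∧ (k < 4096 → g (pos c) = pos k) := by
  obtain ⟨g, hg, h⟩ := code_good (Nat.beq (e / 16384 % 2) 1) (Nat.beq (e / 4096 % 2) 1)
    (Nat.beq (e / 8192 % 2) 1) (e / 32768 % 64) (e / 2097152)
  exact ⟨g, hg, fun n D c hc => ⟨_, go_spec _ _ _ _ _ n D c hc, h c⟩⟩

lemma sub_spec {a b : ℕ} (h : Nat.beq (a ||| b) b = true) {k : ℕ} (hk : a.testBit k = true) :
    b.testBit k = true := by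
  rw [← Nat.eq_of_beq_eq_true h, Nat.testBit_or, hk, Bool.true_or]

def Valid (c : Card) : Prop :=
  ∀ g, Good g → ∀ M B : Finset (ℤ × ℤ), Disjoint M B →
    (∀ k ∈ cells c.nC c.C, g (pos k) ∈ M) → (∀ k ∈ cells c.nN c.N, g (pos k) ∉ B) → W c.d M B

lemma loop_spec (t : T) (n0 d MC MU : ℕ) (hv : ∀ j < n0, (t.get j).d < d → Valid (t.get j))
    (g : ℤ × ℤ → ℤ × ℤ) (hg : Good g) (M B : Finset (ℤ × ℤ)) (b : ℤ × ℤ)
    (hd : Disjoint M (insert b B))
    (hC : ∀ k, MC.testBit k = true → k < 4096 ∧ g (pos k) ∈ M)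
    (hU : ∀ k, MU.testBit k = true → k < 4096 ∧ g (pos k) ∉ B) :
    ∀ n D acc, loop t n0 d MC MU n D acc = true →
      (0 < n ∨ ∃ k, acc.testBit k = true ∧ g (pos k) = b) →
      (∀ k, MU.testBit k = true → g (pos k) = b → acc.testBit k = true) → W (d - 1) M (insert b B)
  | 0, _, acc, h, h1, _ => by
    obtain ⟨k, hk, e⟩ := h1.resolve_left (lt_irrefl 0)
    have := (hC k (sub_spec h hk)).2
    rw [e] at this
    exact absurd (Finset.mem_insert_self b B) (Finset.disjoint_left.mp hd this)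
  | n + 1, D, acc, h, _, h2 => by
    simp only [loop, Bool.and_eq_true, Nat.ble_eq] at h
    obtain ⟨⟨⟨⟨a1, a2⟩, a3⟩, a4⟩, a5⟩ := h
    obtain ⟨g', hg', hs⟩ := gm_good (D % 134217728)
    by_cases hb : ∃ k, (gm (D % 134217728) (t.get (D % 4096)).nN
        (t.get (D % 4096)).N).testBit k = true ∧ g (pos k) = b
    · obtain ⟨k, hk, e⟩ := hb
      refine loop_spec t n0 d MC MU hv g hg M B b hd hC hU n _ _ a5 (Or.inr ⟨k, ?_, e⟩) ?_
      · rw [Nat.testBit_and, hk, h2 k (sub_spec a4 hk) e]; rfl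
      · intro l hl e'
        have : l = k := pos_inj (hg.inj (e'.trans e.symm))
        rw [Nat.testBit_and, h2 l hl e', this, hk]; rfl
    · refine W_mono (by omega) (hv _ a1 a2 (g ∘ g') (hg.comp hg') M _ hd ?_ ?_)
      · intro c hc
        obtain ⟨k, hk, e⟩ := hs _ _ c hc
        have := hC k (sub_spec a3 hk)
        simp only [Function.comp, e this.1, this.2]
      · intro c hc
        obtain ⟨k, hk, e⟩ := hs _ _ c hc
        have := hU k (sub_spec a4 hk)
        simp only [Function.comp, e this.1, Finset.mem_insert, not_or]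
        exact ⟨fun e' => hb ⟨k, hk, e'⟩, this.2⟩

lemma valid_step (t : T) (n0 i : ℕ) (h : check t n0 i = true)
    (hv : ∀ j < n0, (t.get j).d < (t.get i).d → Valid (t.get j)) : Valid (t.get i) := by
  intro g hg M B hd hC hN
  set c := t.get i with hc
  simp only [check, checkC, Bool.and_eq_true, Nat.ble_eq, ← hc] at h
  obtain ⟨⟨h1, h2⟩, h3⟩ := h
  have hp := (mask_spec _ _ _).mp h1
  obtain ⟨q, hq1, hq2, hq3⟩ : ∃ q, q ∉ M ∧ q ∉ B ∧ g (pos c.p) ∈ insert q M := by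
    by_cases hm : g (pos c.p) ∈ M
    · obtain ⟨q, hq⟩ := Infinite.exists_notMem_finset (M ∪ B)
      rw [Finset.mem_union, not_or] at hq
      exact ⟨q, hq.1, hq.2, Finset.mem_insert_of_mem hm⟩
    · exact ⟨_, hm, hN _ hp, Finset.mem_insert_self _ _⟩
  have hMC : ∀ k, ((1 <<< c.p) ||| mask c.nC c.C).testBit k = true →
      k < 4096 ∧ g (pos k) ∈ insert q M := by
    intro k hk
    simp only [Nat.testBit_or, Bool.or_eq_true, tb1, mask_spec] at hk
    rcases hk with rfl | hk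
    · exact ⟨cells_lt _ _ _ hp, hq3⟩
    · exact ⟨cells_lt _ _ _ hk, Finset.mem_insert_of_mem (hC k hk)⟩
  obtain ⟨d, hd'⟩ : ∃ d, c.d = d + 1 := ⟨c.d - 1, by omega⟩
  rw [hd']
  refine Or.inr ⟨q, hq1, hq2, fun b hb hb' => ?_⟩
  have hdis : Disjoint (insert q M) B := Finset.disjoint_insert_left.mpr ⟨hq2, hd⟩
  cases h0 : Nat.beq c.nch 0
  · rw [h0, cond_false] at h3
    have := loop_spec t n0 c.d _ _ hv g hg (insert q M) B b
      (Finset.disjoint_insert_right.mpr ⟨hb, hdis⟩) hMC ?_ _ _ _ h3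
      (Or.inl (Nat.pos_of_ne_zero (Nat.ne_of_beq_eq_false h0))) (fun k hk _ => hk)
    · rwa [hd'] at this
    · intro k hk
      rw [Nat.testBit_or, Bool.or_eq_true, mask_spec] at hk
      rcases hk with hk | hk
      · exact ⟨cells_lt _ _ _ hk, hN k hk⟩
      · exact ⟨(hMC k hk).1, Finset.disjoint_left.mp hdis (hMC k hk).2⟩
  · rw [h0, cond_true] at h3
    refine W_mono (Nat.zero_le d) ?_
    obtain ⟨t0, R, hR, rfl⟩ := hg
    refine ⟨t0, R, hR, fun x hx => ?_⟩
    have e : ∀ k, Nat.testBit 442721857769029238799 k = true →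
        t0 + R (pos k) ∈ ((insert q M : Finset (ℤ × ℤ)) : Set (ℤ × ℤ)) :=
      fun k hk => (hMC k (sub_spec h3 hk)).2
    simp only [sn, Finset.mem_insert, Finset.mem_singleton] at hx
    rcases hx with rfl | rfl | rfl | rfl | rfl | rfl
    · exact e 0 (by decide)
    · exact e 1 (by decide)
    · exact e 2 (by decide)
    · exact e 3 (by decide)
    · exact e 67 (by decide)
    · exact e 68 (by decide)

lemma valid_all (t : T) (n0 : ℕ) (h : ∀ i < n0, check t n0 i = true) :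
    ∀ d i, i < n0 → (t.get i).d = d → Valid (t.get i) := by
  intro d
  induction d using Nat.strong_induction_on with
  | _ d ih =>
    intro i hi e
    exact valid_step t n0 i (h i hi) fun j hj hlt => ih _ (e ▸ hlt) j hj rfl

end Vale.Agent.P062
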