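import Vale.Agent.P062.Data

namespace Vale.Agent.P062

theorem ck0_0 : checkR tree 2703 0 57 = true := by decide +kernel

theorem ck0_1 : checkR tree 2703 57 57 = true := by decide +kernel

theorem ck0_2 : checkR tree 2703 114 57 = true := by decide +kernel

theorem ck0_3 : checkR tree 2703 171 55 = true := by decide +kernel

end Vale.Agent.P062
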